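import Vale.Agent.Lib.P043.Lin

/-!
P043, hand-in: the periodic tiling conjecture for products, in every dimension.
`Tiles A F` : every `g` has exactly one `f ∈ F` with `g - f ∈ A` (that is `A ⊕ F = G`);
`Per A` : `A` is invariant under `N G` for some integer `N ≥ 1` (for `G = ℤ^d`: under a sublattice of
full rank).
-/

namespace Vale.Agent.Results.P043.BasisProducts

open Vale.Agent.P043

theorem result :
    -- (1) a product of finite sets `F i ⊂ ℤ^(d i)` is a tile iff every factor is a tile, and has a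
    -- periodic tiling iff every factor has one
    (∀ (k : ℕ) (d : Fin k → ℕ) (F : ∀ i, Finset (Fin (d i) → ℤ)),
      ((∃ A : Set (∀ i, Fin (d i) → ℤ), Tiles A (Fintype.piFinset F)) ↔
        ∀ i, ∃ A : Set (Fin (d i) → ℤ), Tiles A (F i)) ∧
      ((∃ A : Set (∀ i, Fin (d i) → ℤ), Tiles A (Fintype.piFinset F) ∧ Per A) ↔
        ∀ i, ∃ A : Set (Fin (d i) → ℤ), Tiles A (F i) ∧ Per A)) ∧
    -- (2) if `F` is a product of sets of integers with respect to some linearly independent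
    -- vectors of `ℤ^n` and `F` tiles `ℤ^n`, then `F` admits a periodic tiling
    (∀ (n : ℕ) (F : Finset (Fin n → ℤ)),
      (∃ v : Fin n → Fin n → ℤ, LinearIndependent ℤ v ∧ ∃ S : Fin n → Finset ℤ,
        ∀ x, x ∈ F ↔ ∃ c : Fin n → ℤ, (∀ i, c i ∈ S i) ∧ x = ∑ i, c i • v i) →
      (∃ A : Set (Fin n → ℤ), Tiles A F) → ∃ A : Set (Fin n → ℤ), Tiles A F ∧ Per A) := by
  refine ⟨fun k d F => ⟨exists_tiles_iff F, exists_per_iff F⟩, ?_⟩
  rintro n F ⟨v, hv, S, hS⟩ ⟨A, hA⟩
  have hF : F = (Fintype.piFinset S).map ⟨comb v, comb_inj hv⟩ := by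
    ext x
    rw [hS, Finset.mem_map]
    constructor
    · rintro ⟨c, hc, rfl⟩
      exact ⟨c, Fintype.mem_piFinset.2 hc, rfl⟩
    · rintro ⟨c, hc, rfl⟩
      exact ⟨c, Fintype.mem_piFinset.1 hc, rfl⟩
  rw [hF] at hA ⊢
  exact lin_int hv S ⟨A, hA⟩

end Vale.Agent.Results.P043.BasisProducts
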