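import Mathlib

/-!
# The periodic tiling conjecture is stable under products of tiles in transversal sublattices

For subsets `F ⊆ G` and `E ⊆ H` of abelian groups, `F × E` tiles `G × H` by translations if and only
if `F` tiles `G` and `E` tiles `H`, and `F × E` admits a periodic tiling if and only if both `F` and
`E` do.  Both properties are invariant under injective homomorphisms with image of finite index.
-/

open Set

namespace Vale.Agent.Results.P043.ProductTiles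

variable {G H : Type} [AddCommGroup G] [AddCommGroup H]

/-- `A ⊕ F = G`: every `g` has a unique expression `g = a + f` with `a ∈ A`, `f ∈ F` -/
def IsTiling (A F : Set G) : Prop :=
  ∀ g, ∃! p : G × G, p.1 ∈ A ∧ p.2 ∈ F ∧ p.1 + p.2 = g

/-- `A + h = A` for every `h` in some subgroup of finite index -/
def IsPeriodic (A : Set G) : Prop :=
  ∃ K : AddSubgroup G, K.FiniteIndex ∧ ∀ h ∈ K, ∀ a, a ∈ A ↔ a + h ∈ A

/-- `F` is a translational tile -/
def IsTile (F : Set G) : Prop := F.Finite ∧ F.Nonempty ∧ ∃ A, IsTiling A F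

/-- `F` admits a periodic tiling -/
def HasPeriodicTiling (F : Set G) : Prop := ∃ A, IsTiling A F ∧ IsPeriodic A

theorem comap_fi {G G' : Type} [AddCommGroup G] [AddCommGroup G'] (f : G →+ G')
    (K : AddSubgroup G') [K.FiniteIndex] : (K.comap f).FiniteIndex := by
  refine ⟨?_⟩
  rw [AddSubgroup.index_comap]
  exact (inferInstance : (K.addSubgroupOf f.range).FiniteIndex).index_ne_zero

/-- the slice of a tiling of `G × H` at height `0` -/
def slice (T : Set (G × H)) (E : Set H) : Set G := {a | ∃ t, (a, t) ∈ T ∧ ∃ e ∈ E, t + e = 0}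

theorem slice_tiling {T : Set (G × H)} {F : Set G} {E : Set H} (h : IsTiling T (F ×ˢ E)) :
    IsTiling (slice T E) F := by
  intro g
  obtain ⟨⟨⟨a, t⟩, ⟨f, e⟩⟩, ⟨hT, hFE, hsum⟩, huniq⟩ := h (g, 0)
  have h1 : a + f = g := congrArg Prod.fst hsum
  have h2 : t + e = 0 := congrArg Prod.snd hsum
  refine ⟨(a, f), ⟨⟨t, hT, e, hFE.2, h2⟩, hFE.1, h1⟩, ?_⟩
  rintro ⟨a', f'⟩ ⟨⟨t', hT', e', he', hte'⟩, hf', hsum'⟩
  have h3 := huniq ((a', t'), (f', e')) ⟨hT', ⟨hf', he'⟩, Prod.ext hsum' hte'⟩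
  have h4 : a' = a := congrArg (fun q : (G × H) × (G × H) => q.1.1) h3
  have h5 : f' = f := congrArg (fun q : (G × H) × (G × H) => q.2.1) h3
  rw [h4, h5]

theorem slice_periodic {T : Set (G × H)} {E : Set H} (h : IsPeriodic T) :
    IsPeriodic (slice T E) := by
  obtain ⟨K, hK, hinv⟩ := h
  refine ⟨K.comap (AddMonoidHom.inl G H), comap_fi _ K, fun g hg a => ?_⟩
  have hg' : ((g, 0) : G × H) ∈ K := hg
  constructor
  · rintro ⟨t, ht, e, he, hte⟩
    refine ⟨t, ?_, e, he, hte⟩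
    have := (hinv _ hg' (a, t)).1 ht
    simpa using this
  · rintro ⟨t, ht, e, he, hte⟩
    refine ⟨t, ?_, e, he, hte⟩
    refine (hinv _ hg' (a, t)).2 ?_
    simpa using ht

/-- the equivalence exchanging the two factors transports tilings -/
theorem swap_tiling {T : Set (G × H)} {F : Set G} {E : Set H} (h : IsTiling T (F ×ˢ E)) :
    IsTiling (Prod.swap ⁻¹' T : Set (H × G)) (E ×ˢ F) := by
  rintro ⟨y, x⟩
  obtain ⟨⟨⟨a, t⟩, ⟨f, e⟩⟩, ⟨hT, hFE, hsum⟩, huniq⟩ := h (x, y)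
  have h1 : a + f = x := congrArg Prod.fst hsum
  have h2 : t + e = y := congrArg Prod.snd hsum
  refine ⟨((t, a), (e, f)), ⟨hT, ⟨hFE.2, hFE.1⟩, Prod.ext h2 h1⟩, ?_⟩
  rintro ⟨⟨t', a'⟩, ⟨e', f'⟩⟩ ⟨hT', hEF', hsum'⟩
  have h3 := huniq ((a', t'), (f', e')) ⟨hT', ⟨hEF'.2, hEF'.1⟩,
    Prod.ext (congrArg Prod.snd hsum') (congrArg Prod.fst hsum')⟩
  have h4 : a' = a := congrArg (fun q : (G × H) × (G × H) => q.1.1) h3
  have h5 : f' = f := congrArg (fun q : (G × H) × (G × H) => q.2.1) h3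
  have h6 : t' = t := congrArg (fun q : (G × H) × (G × H) => q.1.2) h3
  have h7 : e' = e := congrArg (fun q : (G × H) × (G × H) => q.2.2) h3
  rw [h4, h5, h6, h7]

theorem swap_periodic {T : Set (G × H)} (h : IsPeriodic T) :
    IsPeriodic (Prod.swap ⁻¹' T : Set (H × G)) := by
  obtain ⟨K, hK, hinv⟩ := h
  refine ⟨K.comap (AddEquiv.prodComm : H × G ≃+ G × H).toAddMonoidHom, comap_fi _ K,
    fun g hg a => ?_⟩
  exact hinv _ hg a.swap

theorem prod_tiling {A F : Set G} {B E : Set H} (h : IsTiling A F) (h' : IsTiling B E) :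
    IsTiling (A ×ˢ B) (F ×ˢ E) := by
  rintro ⟨x, y⟩
  obtain ⟨⟨a, f⟩, ⟨ha, hf, haf⟩, hu⟩ := h x
  obtain ⟨⟨b, e⟩, ⟨hb, he, hbe⟩, hu'⟩ := h' y
  refine ⟨((a, b), (f, e)), ⟨⟨ha, hb⟩, ⟨hf, he⟩, Prod.ext haf hbe⟩, ?_⟩
  rintro ⟨⟨a', b'⟩, ⟨f', e'⟩⟩ ⟨hab, hfe, hsum⟩
  have h1 := hu (a', f') ⟨hab.1, hfe.1, congrArg Prod.fst hsum⟩
  have h2 := hu' (b', e') ⟨hab.2, hfe.2, congrArg Prod.snd hsum⟩
  have h3 : a' = a := congrArg Prod.fst h1
  have h4 : f' = f := congrArg Prod.snd h1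
  have h5 : b' = b := congrArg Prod.fst h2
  have h6 : e' = e := congrArg Prod.snd h2
  rw [h3, h4, h5, h6]

theorem prod_periodic {A : Set G} {B : Set H} (h : IsPeriodic A) (h' : IsPeriodic B) :
    IsPeriodic (A ×ˢ B) := by
  obtain ⟨K, hK, hinv⟩ := h
  obtain ⟨K', hK', hinv'⟩ := h'
  have i1 := comap_fi (AddMonoidHom.fst G H) K
  have i2 := comap_fi (AddMonoidHom.snd G H) K'
  refine ⟨K.comap (AddMonoidHom.fst G H) ⊓ K'.comap (AddMonoidHom.snd G H), inferInstance,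
    fun g hg a => ?_⟩
  have h1 := hinv g.1 hg.1 a.1
  have h2 := hinv' g.2 hg.2 a.2
  constructor
  · rintro ⟨ha, hb⟩
    exact ⟨h1.1 ha, h2.1 hb⟩
  · rintro ⟨ha, hb⟩
    exact ⟨h1.2 ha, h2.2 hb⟩

section embed

variable {G' : Type} [AddCommGroup G'] {φ : G' →+ G}

theorem pull_tiling (hφ : Function.Injective φ) {T : Set G} {F : Set G'}
    (h : IsTiling T (φ '' F)) : IsTiling (φ ⁻¹' T) F := by
  intro g
  obtain ⟨⟨t, f'⟩, ⟨hT, ⟨f, hf, hff⟩, hsum⟩, huniq⟩ := h (φ g)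
  have hsum' : t + f' = φ g := hsum
  have hff' : φ f = f' := hff
  have ht : φ (g - f) = t := by
    rw [map_sub, hff', ← hsum', add_sub_cancel_right]
  refine ⟨(g - f, f), ⟨?_, hf, sub_add_cancel g f⟩, ?_⟩
  · change φ (g - f) ∈ T
    rw [ht]
    exact hT
  rintro ⟨a, e⟩ ⟨ha, he, hae⟩
  have hae' : a + e = g := hae
  have h3 := huniq (φ a, φ e) ⟨ha, ⟨e, he, rfl⟩, by
    change φ a + φ e = φ g
    rw [← map_add, hae']⟩
  have h4 : φ e = f' := congrArg Prod.snd h3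
  have h5 : e = f := hφ (h4.trans hff'.symm)
  subst h5
  rw [← hae', add_sub_cancel_right]

theorem pull_periodic {T : Set G} (h : IsPeriodic T) : IsPeriodic (φ ⁻¹' T) := by
  obtain ⟨K, hK, hinv⟩ := h
  refine ⟨K.comap φ, comap_fi φ K, fun g hg a => ?_⟩
  have := hinv (φ g) hg (φ a)
  rw [← map_add] at this
  exact this

/-- the union of the copies of `φ(A)` in the cosets of `φ(G')` -/
def push (φ : G' →+ G) (A : Set G') : Set G :=
  {g | ∃ a ∈ A, g = φ a + (QuotientAddGroup.mk g : G ⧸ φ.range).out}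

theorem mk_add (a : G') (s : G) :
    (QuotientAddGroup.mk (φ a + s) : G ⧸ φ.range) = QuotientAddGroup.mk s := by
  rw [QuotientAddGroup.eq]
  refine ⟨-a, ?_⟩
  rw [map_neg]
  abel

theorem push_tiling (hφ : Function.Injective φ) {A F : Set G'} (h : IsTiling A F) :
    IsTiling (push φ A) (φ '' F) := by
  intro g
  let s : G := (QuotientAddGroup.mk g : G ⧸ φ.range).out
  have hs : (QuotientAddGroup.mk s : G ⧸ φ.range) = QuotientAddGroup.mk g := Quotient.out_eq _
  obtain ⟨g', hg'⟩ : g - s ∈ φ.range := by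
    have := QuotientAddGroup.eq.1 hs
    rwa [neg_add_eq_sub] at this
  obtain ⟨⟨a, f⟩, ⟨ha, hf, haf⟩, huniq⟩ := h g'
  have haf' : a + f = g' := haf
  refine ⟨(φ a + s, φ f), ⟨⟨a, ha, ?_⟩, ⟨f, hf, rfl⟩, ?_⟩, ?_⟩
  · rw [mk_add, hs]
  · change φ a + s + φ f = g
    have h1 : φ a + φ f = g - s := by rw [← map_add, haf', hg']
    calc φ a + s + φ f = φ a + φ f + s := by abel
      _ = g := by rw [h1, sub_add_cancel]
  rintro ⟨t, f₁⟩ ⟨⟨a', ha', ht⟩, ⟨f', hf', hff'⟩, hsum⟩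
  have hsum' : t + f₁ = g := hsum
  have hff : φ f' = f₁ := hff'
  have htg : (QuotientAddGroup.mk t : G ⧸ φ.range) = QuotientAddGroup.mk g := by
    have h1 := mk_add (φ := φ) f' t
    rw [← h1, hff, add_comm, hsum']
  have ht' : t = φ a' + s := by
    have h1 : t = φ a' + (QuotientAddGroup.mk t : G ⧸ φ.range).out := ht
    rw [htg] at h1
    exact h1
  have h2 : φ (a' + f') = φ g' := by
    rw [map_add, hg', hff, ← hsum', ht']
    abel
  have h3 := huniq (a', f') ⟨ha', hf', hφ h2⟩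
  have h4 : a' = a := congrArg Prod.fst h3
  have h5 : f' = f := congrArg Prod.snd h3
  rw [ht', ← hff, h4, h5]

theorem push_periodic (hφ : Function.Injective φ) (hfi : φ.range.FiniteIndex) {A : Set G'}
    (h : IsPeriodic A) : IsPeriodic (push φ A) := by
  obtain ⟨K, hK, hinv⟩ := h
  refine ⟨K.map φ, ⟨?_⟩, ?_⟩
  · rw [AddSubgroup.index_map_of_injective _ hφ]
    exact mul_ne_zero hK.index_ne_zero hfi.index_ne_zero
  · rintro _ ⟨k, hk, rfl⟩ g
    have hmk : (QuotientAddGroup.mk (g + φ k) : G ⧸ φ.range) = QuotientAddGroup.mk g := by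
      rw [add_comm]
      exact mk_add k g
    constructor
    · rintro ⟨a, ha, hg⟩
      refine ⟨a + k, (hinv k hk a).1 ha, ?_⟩
      rw [hmk, map_add]
      nth_rewrite 1 [hg]
      abel
    · rintro ⟨a, ha, hg⟩
      refine ⟨a - k, ?_, ?_⟩
      · rw [hinv k hk, sub_add_cancel]
        exact ha
      · rw [hmk] at hg
        rw [map_sub]
        have h1 : g = φ a + (QuotientAddGroup.mk g : G ⧸ φ.range).out - φ k := by
          rw [← hg, add_sub_cancel_right]
        nth_rewrite 1 [h1]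
        abel

end embed

/-- The main result, for finite subsets of abelian groups.
(1) `F × E` is a translational tile of `G × H` iff `F` is one of `G` and `E` is one of `H`.
(2) `F × E` has a periodic tiling iff both `F` and `E` have one.
(3) If `φ : G' → G` is an injective homomorphism whose image has finite index, then `φ(F)` is a
translational tile of `G`, resp. has a periodic tiling, iff `F ⊆ G'` is one, resp. has one.
(4) Hence the periodic tiling conjecture holds for the tile `φ(F × E)`, `φ : G × H → L` injective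
with image of finite index, as soon as it holds for `F` and for `E`. -/
theorem result :
    (∀ (G H : Type) [AddCommGroup G] [AddCommGroup H] (F : Set G) (E : Set H),
      (IsTile (F ×ˢ E) ↔ IsTile F ∧ IsTile E) ∧
      (HasPeriodicTiling (F ×ˢ E) ↔ HasPeriodicTiling F ∧ HasPeriodicTiling E)) ∧
    (∀ (G' G : Type) [AddCommGroup G'] [AddCommGroup G] (φ : G' →+ G),
      Function.Injective φ → φ.range.FiniteIndex → ∀ F : Set G',
      (IsTile (φ '' F) ↔ IsTile F) ∧ (HasPeriodicTiling (φ '' F) ↔ HasPeriodicTiling F)) ∧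
    (∀ (G H L : Type) [AddCommGroup G] [AddCommGroup H] [AddCommGroup L] (φ : G × H →+ L),
      Function.Injective φ → φ.range.FiniteIndex → ∀ (F : Set G) (E : Set H),
      (IsTile F → HasPeriodicTiling F) → (IsTile E → HasPeriodicTiling E) →
      IsTile (φ '' (F ×ˢ E)) → HasPeriodicTiling (φ '' (F ×ˢ E))) := by
  have A : ∀ (G H : Type) [AddCommGroup G] [AddCommGroup H] (F : Set G) (E : Set H),
      (IsTile (F ×ˢ E) ↔ IsTile F ∧ IsTile E) ∧
      (HasPeriodicTiling (F ×ˢ E) ↔ HasPeriodicTiling F ∧ HasPeriodicTiling E) := by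
    intro G H _ _ F E
    refine ⟨⟨?_, ?_⟩, ⟨?_, ?_⟩⟩
    · rintro ⟨hfin, hne, T, hT⟩
      obtain ⟨⟨f, e⟩, hf, he⟩ := hne
      refine ⟨⟨?_, ⟨f, hf⟩, _, slice_tiling hT⟩, ⟨?_, ⟨e, he⟩, _, slice_tiling (swap_tiling hT)⟩⟩
      · have : F = Prod.fst '' (F ×ˢ E) := (fst_image_prod F ⟨e, he⟩).symm
        rw [this]
        exact hfin.image _
      · have : E = Prod.snd '' (F ×ˢ E) := (snd_image_prod ⟨f, hf⟩ E).symm
        rw [this]
        exact hfin.image _
    · rintro ⟨⟨hf, ⟨f, hfF⟩, A, hA⟩, ⟨he, ⟨e, heE⟩, B, hB⟩⟩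
      exact ⟨hf.prod he, ⟨(f, e), hfF, heE⟩, _, prod_tiling hA hB⟩
    · rintro ⟨T, hT, hper⟩
      exact ⟨⟨_, slice_tiling hT, slice_periodic hper⟩,
        ⟨_, slice_tiling (swap_tiling hT), slice_periodic (swap_periodic hper)⟩⟩
    · rintro ⟨⟨A, hA, hpA⟩, ⟨B, hB, hpB⟩⟩
      exact ⟨_, prod_tiling hA hB, prod_periodic hpA hpB⟩
  have B : ∀ (G' G : Type) [AddCommGroup G'] [AddCommGroup G] (φ : G' →+ G),
      Function.Injective φ → φ.range.FiniteIndex → ∀ F : Set G',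
      (IsTile (φ '' F) ↔ IsTile F) ∧ (HasPeriodicTiling (φ '' F) ↔ HasPeriodicTiling F) := by
    intro G' G _ _ φ hφ hfi F
    refine ⟨⟨?_, ?_⟩, ⟨?_, ?_⟩⟩
    · rintro ⟨hfin, hne, T, hT⟩
      exact ⟨hfin.of_finite_image hφ.injOn, hne.of_image, _, pull_tiling hφ hT⟩
    · rintro ⟨hfin, hne, A, hA⟩
      exact ⟨hfin.image _, hne.image _, _, push_tiling hφ hA⟩
    · rintro ⟨T, hT, hper⟩
      exact ⟨_, pull_tiling hφ hT, pull_periodic hper⟩
    · rintro ⟨A, hA, hper⟩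
      exact ⟨_, push_tiling hφ hA, push_periodic hφ hfi hper⟩
  refine ⟨A, B, ?_⟩
  intro G H L _ _ _ φ hφ hfi F E hF hE hFE
  have h1 := (A G H F E).1.1 ((B (G × H) L φ hφ hfi (F ×ˢ E)).1.1 hFE)
  exact (B (G × H) L φ hφ hfi (F ×ˢ E)).2.2 ((A G H F E).2.2 ⟨hF h1.1, hE h1.2⟩)

end Vale.Agent.Results.P043.ProductTiles
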